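import Vale.Agent.P184.Main

universe u

theorem Vale.Agent.Results.P184.L1Bass.result (G : Type u) [Group G] (q : ℕ)
    (e : Matrix (Fin q) (Fin q) (G → ℂ))
    (hsum : ∀ i j, Summable (fun g => ‖e i j g‖))
    (hidem : ∀ i j g, e i j g = ∑ l, ∑' h, e i l h * e l j (h⁻¹ * g)) :
    ∃ F : Finset (ConjClasses G), (∀ c ∈ F, ∀ g, ConjClasses.mk g = c → IsOfFinOrder g) ∧
      ∀ c ∉ F, ∑' g : c.carrier, ∑ i, e i i g = 0 :=
  Vale.Agent.P184.bass_of_main Vale.Agent.P184.mainStmt G q e hsum hidem
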